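import Mathlib
import Crest.Prelude.Def_FinProb

/-!
Fourier analysis on the `p`-biased cube `ι → Bool`, with expectations written as finite sums
against `Crest.FinProb.bernoulliWeight`.
-/

set_option autoImplicit false
set_option linter.unusedSectionVars false

namespace Crest.Agent.Lib.BiasedCube

open Finset Crest.FinProb

variable {ι : Type*} [Fintype ι] [DecidableEq ι]

/-- Expectation under independent coins of bias `p`. -/
noncomputable def ex (p : ℝ) (g : (ι → Bool) → ℝ) : ℝ := ∑ x, bernoulliWeight p x * g x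

lemma weight_nonneg {p : ℝ} (h0 : 0 ≤ p) (h1 : p ≤ 1) (x : ι → Bool) :
    0 ≤ bernoulliWeight p x := by
  unfold bernoulliWeight
  refine Finset.prod_nonneg fun i _ => ?_
  split_ifs <;> linarith

lemma ex_prod (p : ℝ) (g : ι → Bool → ℝ) :
    ex p (fun x => ∏ i, g i (x i)) = ∏ i, (p * g i true + (1 - p) * g i false) := by
  unfold ex bernoulliWeight
  have h := Finset.prod_univ_sum (fun _ : ι => (Finset.univ : Finset Bool))
    (fun i b => (if b = true then p else 1 - p) * g i b)
  rw [Fintype.piFinset_univ] at h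
  simp only [← Finset.prod_mul_distrib]
  rw [← h]
  refine Finset.prod_congr rfl fun i _ => ?_
  simp

lemma ex_const (p c : ℝ) : ex p (fun _ : ι → Bool => c) = c := by
  have h := ex_prod (ι := ι) p (fun _ _ => 1)
  simp only [Finset.prod_const_one, mul_one, add_sub_cancel] at h
  unfold ex at h ⊢
  simp only [mul_one] at h
  rw [← Finset.sum_mul, h, one_mul]

lemma sum_weight (p : ℝ) : ∑ x : ι → Bool, bernoulliWeight p x = 1 := by
  have h := ex_const (ι := ι) p 1
  unfold ex at h
  simpa using h

lemma ex_add (p : ℝ) (f g : (ι → Bool) → ℝ) :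
    ex p (fun x => f x + g x) = ex p f + ex p g := by
  unfold ex
  simp only [mul_add, Finset.sum_add_distrib]

lemma ex_sub (p : ℝ) (f g : (ι → Bool) → ℝ) :
    ex p (fun x => f x - g x) = ex p f - ex p g := by
  unfold ex
  simp only [mul_sub, Finset.sum_sub_distrib]

lemma ex_const_mul (p c : ℝ) (f : (ι → Bool) → ℝ) :
    ex p (fun x => c * f x) = c * ex p f := by
  unfold ex
  rw [Finset.mul_sum]
  exact Finset.sum_congr rfl fun x _ => by ring

lemma ex_mul_const (p c : ℝ) (f : (ι → Bool) → ℝ) :
    ex p (fun x => f x * c) = ex p f * c := by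
  unfold ex
  rw [Finset.sum_mul]
  exact Finset.sum_congr rfl fun x _ => by ring

lemma ex_sum {κ : Type*} (p : ℝ) (s : Finset κ) (f : κ → (ι → Bool) → ℝ) :
    ex p (fun x => ∑ k ∈ s, f k x) = ∑ k ∈ s, ex p (f k) := by
  unfold ex
  simp only [Finset.mul_sum]
  rw [Finset.sum_comm]

lemma ex_mono {p : ℝ} (h0 : 0 ≤ p) (h1 : p ≤ 1) {f g : (ι → Bool) → ℝ} (h : ∀ x, f x ≤ g x) :
    ex p f ≤ ex p g :=
  Finset.sum_le_sum fun x _ => mul_le_mul_of_nonneg_left (h x) (weight_nonneg h0 h1 x)

lemma ex_nonneg {p : ℝ} (h0 : 0 ≤ p) (h1 : p ≤ 1) {f : (ι → Bool) → ℝ} (h : ∀ x, 0 ≤ f x) :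
    0 ≤ ex p f :=
  Finset.sum_nonneg fun x _ => mul_nonneg (weight_nonneg h0 h1 x) (h x)

lemma ex_congr (p : ℝ) {f g : (ι → Bool) → ℝ} (h : ∀ x, f x = g x) : ex p f = ex p g := by
  rw [show f = g from funext h]

lemma abs_ex_le {p : ℝ} (h0 : 0 ≤ p) (h1 : p ≤ 1) (f : (ι → Bool) → ℝ) :
    |ex p f| ≤ ex p (fun x => |f x|) := by
  unfold ex
  refine (Finset.abs_sum_le_sum_abs _ _).trans (le_of_eq ?_)
  refine Finset.sum_congr rfl fun x _ => ?_
  rw [abs_mul, abs_of_nonneg (weight_nonneg h0 h1 x)]

lemma ex_comm {κ : Type*} [Fintype κ] [DecidableEq κ] (p q : ℝ)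
    (F : (ι → Bool) → (κ → Bool) → ℝ) :
    ex p (fun x => ex q (fun y => F x y)) = ex q (fun y => ex p (fun x => F x y)) := by
  unfold ex
  simp only [Finset.mul_sum]
  rw [Finset.sum_comm]
  exact Finset.sum_congr rfl fun y _ => Finset.sum_congr rfl fun x _ => by ring

/-- Cauchy–Schwarz. -/
lemma ex_mul_sq_le {p : ℝ} (h0 : 0 ≤ p) (h1 : p ≤ 1) (f g : (ι → Bool) → ℝ) :
    (ex p (fun x => f x * g x)) ^ 2 ≤ ex p (fun x => f x ^ 2) * ex p (fun x => g x ^ 2) := by
  have h := Finset.sum_mul_sq_le_sq_mul_sq (Finset.univ : Finset (ι → Bool))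
    (fun x => √(bernoulliWeight p x) * f x) (fun x => √(bernoulliWeight p x) * g x)
  unfold ex
  have e : ∀ x : ι → Bool, √(bernoulliWeight p x) ^ 2 = bernoulliWeight p x :=
    fun x => Real.sq_sqrt (weight_nonneg h0 h1 x)
  have e1 : ∀ x, √(bernoulliWeight p x) * f x * (√(bernoulliWeight p x) * g x)
      = bernoulliWeight p x * (f x * g x) := fun x => by
    have := e x
    calc _ = √(bernoulliWeight p x) ^ 2 * (f x * g x) := by ring
      _ = _ := by rw [this]
  simp only [e1, mul_pow, e] at h
  exact h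

lemma weight_piecewise (p : ℝ) (J : Finset ι) (x y : ι → Bool) :
    bernoulliWeight p (J.piecewise x y) * bernoulliWeight p (J.piecewise y x)
      = bernoulliWeight p x * bernoulliWeight p y := by
  unfold bernoulliWeight
  simp only [← Finset.prod_mul_distrib]
  refine Finset.prod_congr rfl fun i _ => ?_
  by_cases hi : i ∈ J
  · simp [Finset.piecewise, hi]
  · simp only [Finset.piecewise, hi, if_false]; ring

/-- Taking the coordinates in `J` from one sample and the others from an independent sample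
gives again a sample. -/
lemma ex_piecewise (p : ℝ) (J : Finset ι) (g : (ι → Bool) → ℝ) :
    ex p (fun x => ex p (fun y => g (J.piecewise x y))) = ex p g := by
  have inv : ∀ x y : ι → Bool, J.piecewise (J.piecewise x y) (J.piecewise y x) = x := by
    intro x y; funext i
    by_cases hi : i ∈ J <;> simp [Finset.piecewise, hi]
  let e : (ι → Bool) × (ι → Bool) ≃ (ι → Bool) × (ι → Bool) :=
    { toFun := fun z => (J.piecewise z.1 z.2, J.piecewise z.2 z.1)
      invFun := fun z => (J.piecewise z.1 z.2, J.piecewise z.2 z.1)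
      left_inv := fun z => by simp [inv]
      right_inv := fun z => by simp [inv] }
  have h1 : ex p (fun x => ex p (fun y => g (J.piecewise x y)))
      = ∑ z : (ι → Bool) × (ι → Bool),
          bernoulliWeight p (e z).1 * bernoulliWeight p (e z).2 * g (e z).1 := by
    unfold ex
    rw [Fintype.sum_prod_type]
    refine Finset.sum_congr rfl fun x _ => ?_
    rw [Finset.mul_sum]
    refine Finset.sum_congr rfl fun y _ => ?_
    change _ = bernoulliWeight p (J.piecewise x y) * bernoulliWeight p (J.piecewise y x) *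
      g (J.piecewise x y)
    rw [weight_piecewise]; ring
  rw [h1, Equiv.sum_comp e (fun z => bernoulliWeight p z.1 * bernoulliWeight p z.2 * g z.1),
    Fintype.sum_prod_type]
  unfold ex
  refine Finset.sum_congr rfl fun x _ => ?_
  have : ∀ y : ι → Bool, bernoulliWeight p x * bernoulliWeight p y * g x
      = bernoulliWeight p y * (bernoulliWeight p x * g x) := fun y => by ring
  simp only [this]
  rw [← Finset.sum_mul, sum_weight, one_mul]

lemma ex_coord (p : ℝ) (i : ι) (F : Bool → ℝ) :
    ex p (fun x : ι → Bool => F (x i)) = p * F true + (1 - p) * F false := by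
  have h := ex_prod p (fun j b => if j = i then F b else 1)
  simp only [Finset.prod_ite_eq', Finset.mem_univ, if_true] at h
  rw [h, Finset.prod_eq_single i]
  · simp
  · intro j _ hj; simp [hj]
  · simp

/-- Averaging over the coordinate `i` first. -/
lemma ex_update (p : ℝ) (i : ι) (g : (ι → Bool) → ℝ) :
    ex p g = ex p (fun x => p * g (Function.update x i true)
      + (1 - p) * g (Function.update x i false)) := by
  rw [← ex_piecewise p {i} g, ex_comm]
  refine ex_congr p fun y => ?_
  rw [← ex_coord p i (fun b => g (Function.update y i b))]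
  refine ex_congr p fun x => ?_
  rw [Finset.piecewise_singleton]

lemma ex_comp_perm (p : ℝ) (τ : Equiv.Perm ι) (g : (ι → Bool) → ℝ) :
    ex p (fun x => g (x ∘ τ)) = ex p g := by
  unfold ex
  let e : (ι → Bool) ≃ (ι → Bool) := Equiv.arrowCongr τ.symm (Equiv.refl Bool)
  have he : ∀ x, e x = x ∘ τ := fun x => by
    funext i; simp [e, Equiv.arrowCongr_apply]
  rw [← Equiv.sum_comp e (fun x => bernoulliWeight p x * g x)]
  refine Finset.sum_congr rfl fun x _ => ?_
  rw [he]
  congr 1
  unfold bernoulliWeight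
  exact (Equiv.prod_comp τ (fun i => if x i = true then p else 1 - p)).symm

/-! ### The orthonormal basis -/

/-- Standard deviation of one coin. -/
noncomputable def sg (p : ℝ) : ℝ := √(p * (1 - p))

/-- The normalised coin. -/
noncomputable def phi (p : ℝ) (b : Bool) : ℝ := ((if b then 1 else 0) - p) / sg p

/-- The biased Walsh character. -/
noncomputable def chi (p : ℝ) (S : Finset ι) (x : ι → Bool) : ℝ := ∏ i ∈ S, phi p (x i)

/-- The biased Fourier coefficient. -/
noncomputable def coef (p : ℝ) (g : (ι → Bool) → ℝ) (S : Finset ι) : ℝ :=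
  ex p (fun x => g x * chi p S x)

lemma sg_pos {p : ℝ} (h0 : 0 < p) (h1 : p < 1) : 0 < sg p :=
  Real.sqrt_pos.2 (mul_pos h0 (by linarith))

lemma sg_sq {p : ℝ} (h0 : 0 < p) (h1 : p < 1) : sg p ^ 2 = p * (1 - p) :=
  Real.sq_sqrt (mul_pos h0 (by linarith)).le

lemma sg_le_half {p : ℝ} (h0 : 0 < p) (h1 : p < 1) : sg p ≤ 1 / 2 := by
  have h := sg_sq h0 h1
  have h2 := sg_pos h0 h1
  nlinarith [sq_nonneg (p - 1 / 2)]

lemma phi_mean (p : ℝ) : p * phi p true + (1 - p) * phi p false = 0 := by
  simp only [phi, if_true, Bool.false_eq_true, if_false]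
  ring

lemma phi_var {p : ℝ} (h0 : 0 < p) (h1 : p < 1) :
    p * (phi p true * phi p true) + (1 - p) * (phi p false * phi p false) = 1 := by
  have h := sg_sq h0 h1
  have h2 := (sg_pos h0 h1).ne'
  simp only [phi, if_true, Bool.false_eq_true, if_false]
  field_simp
  rw [h]; ring

lemma chi_eq_prod_univ (p : ℝ) (S : Finset ι) (x : ι → Bool) :
    chi p S x = ∏ i, if i ∈ S then phi p (x i) else 1 := by
  unfold chi
  rw [Finset.prod_ite_mem, Finset.univ_inter]

lemma ex_chi_mul_chi {p : ℝ} (h0 : 0 < p) (h1 : p < 1) (S T : Finset ι) :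
    ex p (fun x => chi p S x * chi p T x) = if S = T then 1 else 0 := by
  have h := ex_prod p (fun i b => (if i ∈ S then phi p b else 1) * (if i ∈ T then phi p b else 1))
  simp only [chi_eq_prod_univ, ← Finset.prod_mul_distrib]
  rw [h]
  split_ifs with hST
  · subst hST
    refine Finset.prod_eq_one fun i _ => ?_
    by_cases hi : i ∈ S
    · simp only [hi, if_true]; exact phi_var h0 h1
    · simp [hi]
  · obtain ⟨i, hi⟩ : ∃ i, ¬ (i ∈ S ↔ i ∈ T) := by
      by_contra hcon
      push Not at hcon
      exact hST (Finset.ext hcon)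
    refine Finset.prod_eq_zero (Finset.mem_univ i) ?_
    have := phi_mean p
    by_cases hS : i ∈ S <;> by_cases hT : i ∈ T <;> simp_all

lemma weight_mul_kernel {p : ℝ} (h0 : 0 < p) (h1 : p < 1) (x y : ι → Bool) :
    bernoulliWeight p y * ∑ S : Finset ι, chi p S y * chi p S x = if y = x then 1 else 0 := by
  have hk : ∑ S : Finset ι, chi p S y * chi p S x = ∏ i, (1 + phi p (y i) * phi p (x i)) := by
    rw [Finset.prod_one_add, Finset.powerset_univ]
    refine Finset.sum_congr rfl fun S _ => ?_
    unfold chi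
    rw [Finset.prod_mul_distrib]
  rw [hk]
  unfold bernoulliWeight
  rw [← Finset.prod_mul_distrib]
  have hs := sg_sq h0 h1
  have hs0 := (sg_pos h0 h1).ne'
  have key : ∀ b c : Bool, (if b = true then p else 1 - p) * (1 + phi p b * phi p c)
      = if b = c then 1 else 0 := by
    intro b c
    cases b <;> cases c <;> simp only [phi, if_true, Bool.false_eq_true, if_false,
      Bool.true_eq_false] <;> field_simp <;> rw [hs] <;> ring
  simp only [key]
  split_ifs with hxy
  · subst hxy; simp
  · obtain ⟨i, hi⟩ := Function.ne_iff.1 hxy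
    exact Finset.prod_eq_zero (Finset.mem_univ i) (by simp [hi])

/-- Fourier expansion. -/
lemma expansion {p : ℝ} (h0 : 0 < p) (h1 : p < 1) (g : (ι → Bool) → ℝ) (x : ι → Bool) :
    ∑ S : Finset ι, coef p g S * chi p S x = g x := by
  unfold coef ex
  simp only [Finset.sum_mul]
  rw [Finset.sum_comm]
  have : ∀ y : ι → Bool, ∑ S : Finset ι, bernoulliWeight p y * (g y * chi p S y) * chi p S x
      = g y * (if y = x then 1 else 0) := by
    intro y
    rw [← weight_mul_kernel h0 h1 x y, Finset.mul_sum, Finset.mul_sum]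
    exact Finset.sum_congr rfl fun S _ => by ring
  simp only [this]
  simp

/-- Plancherel. -/
lemma plancherel {p : ℝ} (h0 : 0 < p) (h1 : p < 1) (f g : (ι → Bool) → ℝ) :
    ex p (fun x => f x * g x) = ∑ S : Finset ι, coef p f S * coef p g S := by
  have : ∀ x, f x * g x = ∑ S : Finset ι, coef p f S * (g x * chi p S x) := by
    intro x
    rw [← expansion h0 h1 f x, Finset.sum_mul]
    exact Finset.sum_congr rfl fun S _ => by ring
  simp only [this]
  rw [ex_sum]
  exact Finset.sum_congr rfl fun S _ => by rw [ex_const_mul]; rfl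

/-- Parseval. -/
lemma parseval {p : ℝ} (h0 : 0 < p) (h1 : p < 1) (f : (ι → Bool) → ℝ) :
    ex p (fun x => f x ^ 2) = ∑ S : Finset ι, coef p f S ^ 2 := by
  simp only [sq]
  exact plancherel h0 h1 f f

lemma coef_empty (p : ℝ) (f : (ι → Bool) → ℝ) : coef p f ∅ = ex p f := by
  simp [coef, chi]

lemma chi_union (p : ℝ) {S T : Finset ι} (h : Disjoint S T) (x : ι → Bool) :
    chi p (S ∪ T) x = chi p S x * chi p T x := by
  unfold chi
  rw [Finset.prod_union h]

lemma chi_congr (p : ℝ) (S : Finset ι) {x y : ι → Bool} (h : ∀ i ∈ S, x i = y i) :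
    chi p S x = chi p S y :=
  Finset.prod_congr rfl fun i hi => by rw [h i hi]

lemma coef_perm (p : ℝ) (τ : Equiv.Perm ι) (g : (ι → Bool) → ℝ) (hg : ∀ x, g (x ∘ τ) = g x)
    (S : Finset ι) : coef p g (S.map τ.toEmbedding) = coef p g S := by
  unfold coef
  rw [← ex_comp_perm p τ (fun x => g x * chi p S x)]
  refine ex_congr p fun x => ?_
  rw [hg]
  congr 1
  unfold chi
  rw [Finset.prod_map]
  rfl

end Crest.Agent.Lib.BiasedCube
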