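import Crest.Agent.Lib.BiasedCube.Basic

/-!
Bonami's (2,4) inequality on the biased cube, discrete derivatives, restrictions.
-/

set_option autoImplicit false
set_option linter.unusedSectionVars false

namespace Crest.Agent.Lib.BiasedCube

open Finset Crest.FinProb

variable {ι : Type*} [Fintype ι] [DecidableEq ι]

/-- The damped coin `(b - p) / 2`. -/
noncomputable def psi (p : ℝ) (b : Bool) : ℝ := ((if b then 1 else 0) - p) / 2

lemma two_point {p : ℝ} (h0 : 0 ≤ p) (h1 : p ≤ 1) (h k : ℝ) :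
    p * (h + psi p true * k) ^ 4 + (1 - p) * (h + psi p false * k) ^ 4
      ≤ h ^ 4 + 2 * (h ^ 2 * k ^ 2) + k ^ 4 := by
  simp only [psi, if_true, Bool.false_eq_true, if_false]
  set l := p * (1 - p) with hl
  have hl0 : 0 ≤ l := mul_nonneg h0 (by linarith)
  have hl1 : l ≤ 1 / 4 := by rw [hl]; nlinarith [sq_nonneg (p - 1 / 2)]
  have e : p * (h + (1 - p) / 2 * k) ^ 4 + (1 - p) * (h + (0 - p) / 2 * k) ^ 4
      = h ^ 4 + 3 / 2 * l * (h ^ 2 * k ^ 2) + l * (1 - 2 * p) / 2 * (h * k ^ 3)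
        + l * (1 - 3 * l) / 16 * k ^ 4 := by
    rw [hl]; ring
  rw [e]
  have a1 : 0 ≤ h ^ 2 * k ^ 2 := by positivity
  have a2 : 0 ≤ k ^ 4 := by positivity
  have a3 : |h * k ^ 3| ≤ (h ^ 2 * k ^ 2 + k ^ 4) / 2 := by
    rw [abs_le]
    constructor
    · nlinarith [sq_nonneg (h * k + k ^ 2)]
    · nlinarith [sq_nonneg (h * k - k ^ 2)]
  have a4 : |l * (1 - 2 * p) / 2| ≤ 1 := by
    rw [abs_le]; constructor <;> nlinarith
  have a5 : l * (1 - 2 * p) / 2 * (h * k ^ 3) ≤ (h ^ 2 * k ^ 2 + k ^ 4) / 2 := by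
    calc _ ≤ |l * (1 - 2 * p) / 2 * (h * k ^ 3)| := le_abs_self _
      _ = |l * (1 - 2 * p) / 2| * |h * k ^ 3| := abs_mul _ _
      _ ≤ 1 * ((h ^ 2 * k ^ 2 + k ^ 4) / 2) :=
          mul_le_mul a4 a3 (abs_nonneg _) zero_le_one
      _ = _ := one_mul _
  have a6 : 3 / 2 * l * (h ^ 2 * k ^ 2) ≤ 3 / 2 * (h ^ 2 * k ^ 2) := by nlinarith
  have a7 : l * (1 - 3 * l) / 16 * k ^ 4 ≤ 1 / 2 * k ^ 4 := by
    apply mul_le_mul_of_nonneg_right _ a2
    nlinarith
  linarith

lemma bonami_aux {p : ℝ} (h0 : 0 ≤ p) (h1 : p ≤ 1) (J : Finset ι) (a : Finset ι → ℝ) :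
    ex p (fun x => (∑ S ∈ J.powerset, a S * ∏ i ∈ S, psi p (x i)) ^ 4)
      ≤ (∑ S ∈ J.powerset, a S ^ 2) ^ 2 := by
  induction J using Finset.induction_on generalizing a with
  | empty =>
    simp only [Finset.powerset_empty, Finset.sum_singleton, Finset.prod_empty, mul_one]
    rw [ex_const]
    apply le_of_eq; ring
  | insert j J hj ih =>
    set h : (ι → Bool) → ℝ := fun x => ∑ S ∈ J.powerset, a S * ∏ i ∈ S, psi p (x i) with hh
    set k : (ι → Bool) → ℝ :=
      fun x => ∑ S ∈ J.powerset, a (insert j S) * ∏ i ∈ S, psi p (x i) with hk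
    have hA := ih a
    have hB := ih (fun S => a (insert j S))
    set A := ∑ S ∈ J.powerset, a S ^ 2 with hAdef
    set B := ∑ S ∈ J.powerset, a (insert j S) ^ 2 with hBdef
    have hA0 : 0 ≤ A := Finset.sum_nonneg fun _ _ => sq_nonneg _
    have hB0 : 0 ≤ B := Finset.sum_nonneg fun _ _ => sq_nonneg _
    have hsplit : ∀ x : ι → Bool, ∑ S ∈ (insert j J).powerset, a S * ∏ i ∈ S, psi p (x i)
        = h x + psi p (x j) * k x := by
      intro x
      rw [Finset.sum_powerset_insert hj, hh, hk]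
      simp only [Finset.mul_sum]
      congr 1
      refine Finset.sum_congr rfl fun S hS => ?_
      have : j ∉ S := fun hjS => hj (Finset.mem_powerset.1 hS hjS)
      rw [Finset.prod_insert this]; ring
    have hind : ∀ (c : Finset ι → ℝ) (x : ι → Bool) (b : Bool),
        ∑ S ∈ J.powerset, c S * ∏ i ∈ S, psi p (Function.update x j b i)
          = ∑ S ∈ J.powerset, c S * ∏ i ∈ S, psi p (x i) := by
      intro c x b
      refine Finset.sum_congr rfl fun S hS => ?_
      congr 1
      refine Finset.prod_congr rfl fun i hi => ?_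
      have : i ≠ j := fun e => hj (e ▸ Finset.mem_powerset.1 hS hi)
      rw [Function.update_of_ne this]
    have hh' : ∀ x b, h (Function.update x j b) = h x := fun x b => hind _ x b
    have hk' : ∀ x b, k (Function.update x j b) = k x := fun x b => hind _ x b
    rw [Finset.sum_powerset_insert hj]
    simp only [hsplit]
    rw [ex_update p j]
    simp only [hh', hk', Function.update_self]
    have step : ex p (fun x => p * (h x + psi p true * k x) ^ 4
        + (1 - p) * (h x + psi p false * k x) ^ 4)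
        ≤ ex p (fun x => h x ^ 4 + 2 * (h x ^ 2 * k x ^ 2) + k x ^ 4) :=
      ex_mono h0 h1 fun x => two_point h0 h1 _ _
    refine step.trans ?_
    rw [ex_add, ex_add, ex_const_mul]
    have cs := ex_mul_sq_le h0 h1 (fun x => h x ^ 2) (fun x => k x ^ 2)
    simp only [← pow_mul] at cs
    have hA' : ex p (fun x => h x ^ 4) ≤ A ^ 2 := hA
    have hB' : ex p (fun x => k x ^ 4) ≤ B ^ 2 := hB
    have n1 : 0 ≤ ex p (fun x => h x ^ 4) := ex_nonneg h0 h1 fun x => by positivity
    have cs2 : ex p (fun x => h x ^ 2 * k x ^ 2) ≤ A * B := by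
      apply le_of_sq_le_sq _ (mul_nonneg hA0 hB0) |>.trans le_rfl
      calc _ ≤ ex p (fun x => h x ^ 4) * ex p (fun x => k x ^ 4) := cs
        _ ≤ A ^ 2 * B ^ 2 := mul_le_mul hA' hB'
            (ex_nonneg h0 h1 fun x => by positivity) (sq_nonneg _)
        _ = (A * B) ^ 2 := by ring
    nlinarith

/-- The hypercontractive constant. -/
noncomputable def Bc (p : ℝ) : ℝ := 4 / (p * (1 - p))

lemma Bc_ge {p : ℝ} (h0 : 0 < p) (h1 : p < 1) : 16 ≤ Bc p := by
  unfold Bc
  have : 0 < p * (1 - p) := mul_pos h0 (by linarith)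
  rw [le_div_iff₀ this]
  nlinarith [sq_nonneg (p - 1 / 2)]

/-- Bonami's inequality for a function of degree at most `d`. -/
lemma bonami {p : ℝ} (h0 : 0 < p) (h1 : p < 1) (d : ℕ) (𝒯 : Finset (Finset ι))
    (hd : ∀ T ∈ 𝒯, T.card ≤ d) (c : Finset ι → ℝ) :
    ex p (fun x => (∑ T ∈ 𝒯, c T * chi p T x) ^ 4) ≤ (Bc p ^ d * ∑ T ∈ 𝒯, c T ^ 2) ^ 2 := by
  have hs := sg_pos h0 h1
  have h := bonami_aux h0.le h1.le (Finset.univ : Finset ι)
    (fun T => if T ∈ 𝒯 then c T * (2 / sg p) ^ T.card else 0)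
  have e1 : ∀ x : ι → Bool, ∑ S ∈ (Finset.univ : Finset ι).powerset,
      (if S ∈ 𝒯 then c S * (2 / sg p) ^ S.card else 0) * ∏ i ∈ S, psi p (x i)
      = ∑ T ∈ 𝒯, c T * chi p T x := by
    intro x
    simp only [ite_mul, zero_mul]
    rw [Finset.powerset_univ, Finset.sum_ite_mem, Finset.univ_inter]
    refine Finset.sum_congr rfl fun T _ => ?_
    rw [mul_assoc]
    congr 1
    unfold chi
    rw [← Finset.prod_const, ← Finset.prod_mul_distrib]
    refine Finset.prod_congr rfl fun i _ => ?_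
    unfold psi phi
    field_simp
  simp only [e1] at h
  refine h.trans ?_
  apply pow_le_pow_left₀ (Finset.sum_nonneg fun _ _ => sq_nonneg _)
  have e2 : ∀ S : Finset ι, (if S ∈ 𝒯 then c S * (2 / sg p) ^ S.card else 0) ^ 2
      = if S ∈ 𝒯 then c S ^ 2 * Bc p ^ S.card else 0 := by
    intro S
    split_ifs
    · rw [mul_pow, ← pow_mul, mul_comm S.card 2, pow_mul, div_pow, sg_sq h0 h1]
      unfold Bc; norm_num
    · simp
  simp only [e2]
  rw [Finset.powerset_univ, Finset.sum_ite_mem, Finset.univ_inter, Finset.mul_sum]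
  refine Finset.sum_le_sum fun T hT => ?_
  rw [mul_comm]
  apply mul_le_mul_of_nonneg_right _ (sq_nonneg _)
  exact pow_le_pow_right₀ (by linarith [Bc_ge h0 h1]) (hd T hT)

/-- The low-degree weight is at most `B^d ‖g‖₂ ‖g‖₁`. -/
lemma level_le {p : ℝ} (h0 : 0 < p) (h1 : p < 1) (d : ℕ) (𝒯 : Finset (Finset ι))
    (hd : ∀ T ∈ 𝒯, T.card ≤ d) (g : (ι → Bool) → ℝ) :
    ∑ T ∈ 𝒯, coef p g T ^ 2
      ≤ Bc p ^ d * √(ex p (fun x => g x ^ 2)) * ex p (fun x => |g x|) := by
  set s := ∑ T ∈ 𝒯, coef p g T ^ 2 with hs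
  set k : (ι → Bool) → ℝ := fun x => ∑ T ∈ 𝒯, coef p g T * chi p T x with hk
  have hs0 : 0 ≤ s := Finset.sum_nonneg fun _ _ => sq_nonneg _
  have hB : 0 < Bc p ^ d := pow_pos (by linarith [Bc_ge h0 h1]) d
  set G2 := ex p (fun x => g x ^ 2) with hG2
  set G1 := ex p (fun x => |g x|) with hG1
  have hG20 : 0 ≤ G2 := ex_nonneg h0.le h1.le fun x => sq_nonneg _
  have hG10 : 0 ≤ G1 := ex_nonneg h0.le h1.le fun x => abs_nonneg _
  have e1 : s = ex p (fun x => k x * g x) := by
    have : ∀ x, k x * g x = ∑ T ∈ 𝒯, coef p g T * (g x * chi p T x) := by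
      intro x
      rw [hk]
      simp only [Finset.sum_mul]
      exact Finset.sum_congr rfl fun T _ => by ring
    simp only [this]
    rw [ex_sum, hs]
    refine Finset.sum_congr rfl fun T _ => ?_
    rw [ex_const_mul, sq]; rfl
  have e2 : s ≤ ex p (fun x => (|k x| * √|g x|) * √|g x|) := by
    rw [e1]
    refine ex_mono h0.le h1.le fun x => ?_
    rw [mul_assoc, Real.mul_self_sqrt (abs_nonneg _), ← abs_mul]
    exact le_abs_self _
  have e3 : s ^ 2 ≤ ex p (fun x => k x ^ 2 * |g x|) * G1 := by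
    have cs := ex_mul_sq_le h0.le h1.le (fun x => |k x| * √|g x|) (fun x => √|g x|)
    simp only [mul_pow, sq_abs, Real.sq_sqrt (abs_nonneg _)] at cs
    exact (pow_le_pow_left₀ hs0 e2 2).trans cs
  have e4 : ex p (fun x => k x ^ 2 * |g x|) ≤ Bc p ^ d * s * √G2 := by
    apply le_of_sq_le_sq _ (by positivity) |>.trans le_rfl
    have cs := ex_mul_sq_le h0.le h1.le (fun x => k x ^ 2) (fun x => |g x|)
    simp only [← pow_mul, sq_abs] at cs
    have bn := bonami h0 h1 d 𝒯 hd (coef p g)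
    calc _ ≤ ex p (fun x => k x ^ 4) * G2 := cs
      _ ≤ (Bc p ^ d * s) ^ 2 * G2 := mul_le_mul_of_nonneg_right bn hG20
      _ = (Bc p ^ d * s * √G2) ^ 2 := by rw [mul_pow (Bc p ^ d * s), Real.sq_sqrt hG20]
  rcases hs0.eq_or_lt with h | h
  · rw [← h]; positivity
  · have : s * s ≤ s * (Bc p ^ d * √G2 * G1) := by
      calc s * s = s ^ 2 := by ring
        _ ≤ ex p (fun x => k x ^ 2 * |g x|) * G1 := e3
        _ ≤ Bc p ^ d * s * √G2 * G1 := mul_le_mul_of_nonneg_right e4 hG10
        _ = _ := by ring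
    exact le_of_mul_le_mul_left this h

/-! ### Derivatives -/

/-- The discrete derivative in direction `i`. -/
noncomputable def dv (i : ι) (g : (ι → Bool) → ℝ) (x : ι → Bool) : ℝ :=
  g (Function.update x i true) - g (Function.update x i false)

/-- The `L¹` influence of coordinate `i`. -/
noncomputable def infl (p : ℝ) (g : (ι → Bool) → ℝ) (i : ι) : ℝ := ex p (fun x => |dv i g x|)

lemma infl_nonneg {p : ℝ} (h0 : 0 ≤ p) (h1 : p ≤ 1) (g : (ι → Bool) → ℝ) (i : ι) :
    0 ≤ infl p g i := ex_nonneg h0 h1 fun _ => abs_nonneg _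

lemma chi_update_of_notMem (p : ℝ) {S : Finset ι} {i : ι} (hi : i ∉ S) (x : ι → Bool) (b : Bool) :
    chi p S (Function.update x i b) = chi p S x :=
  chi_congr p S fun j hj => by
    rw [Function.update_of_ne]; rintro rfl; exact hi hj

lemma chi_insert (p : ℝ) {S : Finset ι} {i : ι} (hi : i ∉ S) (x : ι → Bool) :
    chi p (insert i S) x = phi p (x i) * chi p S x := by
  unfold chi; rw [Finset.prod_insert hi]

lemma coef_insert {p : ℝ} (h0 : 0 < p) (h1 : p < 1) (g : (ι → Bool) → ℝ) {S : Finset ι} {i : ι}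
    (hi : i ∉ S) : coef p g (insert i S) = sg p * coef p (dv i g) S := by
  unfold coef
  rw [ex_update p i, ← ex_const_mul]
  refine ex_congr p fun x => ?_
  simp only [chi_insert p hi, chi_update_of_notMem p hi, Function.update_self, dv, phi, if_true,
    Bool.false_eq_true, if_false]
  have hs := sg_sq h0 h1
  have hs0 := (sg_pos h0 h1).ne'
  field_simp
  rw [hs]; ring

lemma coef_dv_of_mem (p : ℝ) (g : (ι → Bool) → ℝ) {S : Finset ι} {i : ι}
    (hi : i ∈ S) : coef p (dv i g) S = 0 := by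
  unfold coef
  rw [ex_update p i, ← ex_const (ι := ι) p 0]
  refine ex_congr p fun x => ?_
  rw [← Finset.insert_erase hi]
  have hi' : i ∉ S.erase i := Finset.notMem_erase i S
  simp only [chi_insert p hi', chi_update_of_notMem p hi', Function.update_self, dv,
    Function.update_idem]
  have := phi_mean p
  linear_combination (g (Function.update x i true) - g (Function.update x i false)) *
    chi p (S.erase i) x * this

/-- Weight of a family of sets containing `i`, through the derivative. -/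
lemma sum_coef_sq_mem {p : ℝ} (h0 : 0 < p) (h1 : p < 1) (g : (ι → Bool) → ℝ) (i : ι)
    (𝒯 : Finset (Finset ι)) (hi : ∀ T ∈ 𝒯, i ∈ T) :
    ∑ T ∈ 𝒯, coef p g T ^ 2
      = sg p ^ 2 * ∑ T ∈ 𝒯.image (fun T => T.erase i), coef p (dv i g) T ^ 2 := by
  rw [Finset.sum_image, Finset.mul_sum]
  · refine Finset.sum_congr rfl fun T hT => ?_
    rw [← mul_pow, ← coef_insert h0 h1 g (Finset.notMem_erase i T), Finset.insert_erase (hi T hT)]
  · intro S hS T hT hST
    have hST' : S.erase i = T.erase i := hST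
    rw [← Finset.insert_erase (hi S hS), ← Finset.insert_erase (hi T hT), hST']

lemma dv_sq_eq_abs {g : (ι → Bool) → ℝ} (hg : ∀ x, g x = 0 ∨ g x = 1) (i : ι) (x : ι → Bool) :
    dv i g x ^ 2 = |dv i g x| := by
  unfold dv
  rcases hg (Function.update x i true) with h | h <;>
    rcases hg (Function.update x i false) with h' | h' <;> simp [h, h']

lemma sum_card_mul_coef_sq_le {p : ℝ} (h0 : 0 < p) (h1 : p < 1) {g : (ι → Bool) → ℝ}
    (hg : ∀ x, g x = 0 ∨ g x = 1) :
    ∑ S : Finset ι, (S.card : ℝ) * coef p g S ^ 2 ≤ sg p ^ 2 * ∑ i, infl p g i := by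
  have e : ∀ S : Finset ι, (S.card : ℝ) * coef p g S ^ 2
      = ∑ i, if i ∈ S then coef p g S ^ 2 else 0 := by
    intro S
    rw [Finset.sum_ite_mem, Finset.univ_inter, Finset.sum_const, nsmul_eq_mul]
  simp only [e]
  rw [Finset.sum_comm, Finset.mul_sum]
  refine Finset.sum_le_sum fun i _ => ?_
  rw [← Finset.sum_filter, sum_coef_sq_mem h0 h1 g i _ (fun T hT => (Finset.mem_filter.1 hT).2)]
  apply mul_le_mul_of_nonneg_left _ (sq_nonneg _)
  unfold infl
  simp only [← dv_sq_eq_abs hg]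
  rw [parseval h0 h1]
  exact Finset.sum_le_sum_of_subset_of_nonneg (Finset.subset_univ _) fun _ _ _ => sq_nonneg _

/-- Variance as Fourier weight on nonempty sets. -/
lemma var_eq {p : ℝ} (h0 : 0 < p) (h1 : p < 1) {g : (ι → Bool) → ℝ}
    (hg : ∀ x, g x = 0 ∨ g x = 1) :
    ex p g * (1 - ex p g) = ∑ S ∈ Finset.univ.filter (fun S : Finset ι => S ≠ ∅),
      coef p g S ^ 2 := by
  have h := parseval h0 h1 g
  have e : ex p (fun x => g x ^ 2) = ex p g := ex_congr p fun x => by
    rcases hg x with h | h <;> simp [h]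
  rw [e, ← Finset.add_sum_erase _ _ (Finset.mem_univ ∅), coef_empty] at h
  rw [Finset.filter_ne']
  linarith

/-! ### Averaging out and restricting -/

/-- Conditional expectation given the coordinates in `A`. -/
noncomputable def cond (p : ℝ) (A : Finset ι) (g : (ι → Bool) → ℝ) (x : ι → Bool) : ℝ :=
  ex p (fun y => g (A.piecewise x y))

lemma coef_cond_of_subset (p : ℝ) (A : Finset ι) (g : (ι → Bool) → ℝ) {T : Finset ι}
    (hT : T ⊆ A) : coef p (cond p A g) T = coef p g T := by
  unfold coef cond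
  rw [← ex_piecewise p A (fun x => g x * chi p T x)]
  refine ex_congr p fun x => ?_
  rw [← ex_mul_const]
  refine ex_congr p fun y => ?_
  congr 1
  exact chi_congr p T fun i hi => by simp [Finset.piecewise, hT hi]

lemma coef_cond_of_not_subset (p : ℝ) (A : Finset ι) (g : (ι → Bool) → ℝ) {T : Finset ι}
    (hT : ¬ T ⊆ A) : coef p (cond p A g) T = 0 := by
  obtain ⟨i, hiT, hiA⟩ := Finset.not_subset.1 hT
  have hind : ∀ x b, cond p A g (Function.update x i b) = cond p A g x := by
    intro x b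
    unfold cond
    refine ex_congr p fun y => ?_
    congr 1
    funext j
    by_cases hj : j ∈ A
    · have : j ≠ i := fun e => hiA (e ▸ hj)
      simp [Finset.piecewise, hj, Function.update_of_ne this]
    · simp [Finset.piecewise, hj]
  unfold coef
  rw [ex_update p i, ← ex_const (ι := ι) p 0]
  refine ex_congr p fun x => ?_
  rw [← Finset.insert_erase hiT]
  have hi' : i ∉ T.erase i := Finset.notMem_erase i T
  simp only [chi_insert p hi', chi_update_of_notMem p hi', Function.update_self, hind]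
  have := phi_mean p
  linear_combination cond p A g x * chi p (T.erase i) x * this

lemma ex_abs_cond_le {p : ℝ} (h0 : 0 ≤ p) (h1 : p ≤ 1) (A : Finset ι) (g : (ι → Bool) → ℝ) :
    ex p (fun x => |cond p A g x|) ≤ ex p (fun x => |g x|) := by
  rw [← ex_piecewise p A (fun x => |g x|)]
  exact ex_mono h0 h1 fun x => abs_ex_le h0 h1 _

/-- Low-degree weight inside a block `A` of coordinates whose total weight is at most `a`. -/
lemma block_level_le {p : ℝ} (h0 : 0 < p) (h1 : p < 1) (d : ℕ) (A : Finset ι)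
    (h : (ι → Bool) → ℝ) (a : ℝ)
    (ha : ∑ T ∈ Finset.univ.filter (fun T : Finset ι => T ⊆ A ∧ T ≠ ∅), coef p h T ^ 2 ≤ a) :
    ∑ T ∈ Finset.univ.filter (fun T : Finset ι => T ⊆ A ∧ T ≠ ∅ ∧ T.card ≤ d), coef p h T ^ 2
      ≤ sg p * Bc p ^ d * √a * ∑ e ∈ A, infl p h e := by
  have hs := sg_pos h0 h1
  have hB : 0 < Bc p ^ d := pow_pos (by linarith [Bc_ge h0 h1]) d
  have step1 : ∑ T ∈ Finset.univ.filter (fun T : Finset ι => T ⊆ A ∧ T ≠ ∅ ∧ T.card ≤ d),
      coef p h T ^ 2 ≤ ∑ e ∈ A, ∑ T ∈ Finset.univ.filter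
        (fun T : Finset ι => T ⊆ A ∧ e ∈ T ∧ T.card ≤ d), coef p h T ^ 2 := by
    simp only [Finset.sum_filter]
    rw [Finset.sum_comm]
    refine Finset.sum_le_sum fun T _ => ?_
    split_ifs with hT
    · obtain ⟨e, he⟩ := Finset.nonempty_iff_ne_empty.2 hT.2.1
      have := Finset.single_le_sum (f := fun e => if T ⊆ A ∧ e ∈ T ∧ T.card ≤ d then
        coef p h T ^ 2 else 0) (s := A) (fun i _ => by split_ifs <;> positivity) (hT.1 he)
      simpa [hT.1, he, hT.2.2] using this
    · exact Finset.sum_nonneg fun i _ => by split_ifs <;> positivity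
  refine step1.trans ?_
  rw [Finset.mul_sum]
  refine Finset.sum_le_sum fun e he => ?_
  rw [sum_coef_sq_mem h0 h1 h e _ (fun T hT => (Finset.mem_filter.1 hT).2.2.1)]
  set g := cond p A (dv e h) with hg
  set 𝒯 := (Finset.univ.filter (fun T : Finset ι => T ⊆ A ∧ e ∈ T ∧ T.card ≤ d)).image
    (fun T => T.erase e) with h𝒯
  have hsub : ∀ T ∈ 𝒯, T ⊆ A ∧ T.card ≤ d := by
    intro T hT
    obtain ⟨T', hT', rfl⟩ := Finset.mem_image.1 hT
    have := (Finset.mem_filter.1 hT').2
    exact ⟨(Finset.erase_subset _ _).trans this.1, (Finset.card_erase_le).trans this.2.2⟩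
  have e1 : ∑ T ∈ 𝒯, coef p (dv e h) T ^ 2 = ∑ T ∈ 𝒯, coef p g T ^ 2 :=
    Finset.sum_congr rfl fun T hT => by rw [hg, coef_cond_of_subset p A _ (hsub T hT).1]
  have e2 := level_le h0 h1 d 𝒯 (fun T hT => (hsub T hT).2) g
  have e3 : ex p (fun x => |g x|) ≤ infl p h e := ex_abs_cond_le h0.le h1.le A _
  have e4 : sg p ^ 2 * ex p (fun x => g x ^ 2) ≤ a := by
    refine le_trans ?_ ha
    have e5 := sum_coef_sq_mem h0 h1 h e
      (Finset.univ.filter (fun T : Finset ι => T ⊆ A ∧ e ∈ T))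
      (fun T hT => (Finset.mem_filter.1 hT).2.2)
    have e6 : ∑ T ∈ Finset.univ.filter (fun T : Finset ι => T ⊆ A ∧ e ∈ T), coef p h T ^ 2
        ≤ ∑ T ∈ Finset.univ.filter (fun T : Finset ι => T ⊆ A ∧ T ≠ ∅), coef p h T ^ 2 := by
      refine Finset.sum_le_sum_of_subset_of_nonneg ?_ fun _ _ _ => sq_nonneg _
      intro T hT
      have := (Finset.mem_filter.1 hT).2
      exact Finset.mem_filter.2 ⟨Finset.mem_univ _, this.1, Finset.ne_empty_of_mem this.2⟩
    refine le_trans ?_ e6
    rw [e5]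
    apply mul_le_mul_of_nonneg_left _ (sq_nonneg _)
    rw [parseval h0 h1]
    rw [← Finset.sum_subset (Finset.subset_univ ((Finset.univ.filter
      (fun T : Finset ι => T ⊆ A ∧ e ∈ T)).image (fun T => T.erase e)))]
    · refine le_of_eq (Finset.sum_congr rfl fun T hT => ?_)
      obtain ⟨T', hT', rfl⟩ := Finset.mem_image.1 hT
      rw [hg, coef_cond_of_subset p A _
        ((Finset.erase_subset _ _).trans (Finset.mem_filter.1 hT').2.1)]
    · intro T _ hT
      by_cases hTA : T ⊆ A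
      · rw [hg, coef_cond_of_subset p A _ hTA]
        by_cases heT : e ∈ T
        · rw [coef_dv_of_mem p h heT]; simp
        · exfalso
          apply hT
          refine Finset.mem_image.2 ⟨insert e T, ?_, Finset.erase_insert heT⟩
          exact Finset.mem_filter.2 ⟨Finset.mem_univ _, Finset.insert_subset he hTA,
            Finset.mem_insert_self _ _⟩
      · rw [hg, coef_cond_of_not_subset p A _ hTA]; simp
  have e7 : sg p * √(ex p (fun x => g x ^ 2)) ≤ √a := by
    rw [← Real.sqrt_sq hs.le, ← Real.sqrt_mul (sq_nonneg _)]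
    exact Real.sqrt_le_sqrt e4
  have n1 : 0 ≤ ex p (fun x => |g x|) := ex_nonneg h0.le h1.le fun _ => abs_nonneg _
  rw [e1]
  calc sg p ^ 2 * ∑ T ∈ 𝒯, coef p g T ^ 2
      ≤ sg p ^ 2 * (Bc p ^ d * √(ex p (fun x => g x ^ 2)) * ex p (fun x => |g x|)) :=
        mul_le_mul_of_nonneg_left e2 (sq_nonneg _)
    _ = sg p * Bc p ^ d * (sg p * √(ex p (fun x => g x ^ 2))) * ex p (fun x => |g x|) := by ring
    _ ≤ sg p * Bc p ^ d * √a * infl p h e := by
        apply mul_le_mul _ e3 n1 (by positivity)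
        exact mul_le_mul_of_nonneg_left e7 (by positivity)

/-- The restriction of `f` fixing the coordinates in `Z` to `z`. -/
def restr (Z : Finset ι) (f : (ι → Bool) → ℝ) (z : ι → Bool) (x : ι → Bool) : ℝ :=
  f (Z.piecewise z x)

lemma sum_coef_sq_fiber_le {p : ℝ} (h0 : 0 < p) (h1 : p < 1) (Z : Finset ι)
    (f : (ι → Bool) → ℝ) (T : Finset ι) :
    ∑ S ∈ Finset.univ.filter (fun S : Finset ι => S \ Z = T), coef p f S ^ 2
      ≤ ex p (fun z => coef p (restr Z f z) T ^ 2) := by
  rw [parseval h0 h1]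
  set G : (ι → Bool) → ℝ := fun z => coef p (restr Z f z) T with hG
  have key : ∀ S : Finset ι, S \ Z = T → coef p G (S ∩ Z) = coef p f S := by
    intro S hS
    unfold coef
    rw [← ex_piecewise p Z (fun x => f x * chi p S x)]
    refine ex_congr p fun z => ?_
    rw [hG]
    unfold coef restr
    simp only
    rw [← ex_mul_const]
    refine ex_congr p fun x => ?_
    rw [mul_assoc]
    congr 1
    have hd : Disjoint (S \ Z) (S ∩ Z) := Finset.disjoint_sdiff_inter S Z
    conv_rhs => rw [← Finset.sdiff_union_inter S Z, chi_union p hd]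
    rw [← hS]
    congr 1
    · exact chi_congr p _ fun i hi => by simp [Finset.piecewise, (Finset.mem_sdiff.1 hi).2]
    · exact chi_congr p _ fun i hi => by simp [Finset.piecewise, (Finset.mem_inter.1 hi).2]
  calc _ = ∑ S ∈ Finset.univ.filter (fun S : Finset ι => S \ Z = T), coef p G (S ∩ Z) ^ 2 :=
        Finset.sum_congr rfl fun S hS => by rw [key S (Finset.mem_filter.1 hS).2]
    _ = ∑ R ∈ (Finset.univ.filter (fun S : Finset ι => S \ Z = T)).image (fun S => S ∩ Z),
          coef p G R ^ 2 := by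
        rw [Finset.sum_image]
        intro S hS S' hS' hSS
        have a1 := (Finset.mem_filter.1 hS).2
        have a2 := (Finset.mem_filter.1 hS').2
        have hSS' : S ∩ Z = S' ∩ Z := hSS
        rw [← Finset.sdiff_union_inter S Z, ← Finset.sdiff_union_inter S' Z, a1, a2, hSS']
    _ ≤ _ := Finset.sum_le_sum_of_subset_of_nonneg (Finset.subset_univ _) fun _ _ _ => sq_nonneg _

lemma sum_coef_sq_sdiff_mem_le {p : ℝ} (h0 : 0 < p) (h1 : p < 1) (Z : Finset ι)
    (f : (ι → Bool) → ℝ) (𝒯 : Finset (Finset ι)) :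
    ∑ S ∈ Finset.univ.filter (fun S : Finset ι => S \ Z ∈ 𝒯), coef p f S ^ 2
      ≤ ex p (fun z => ∑ T ∈ 𝒯, coef p (restr Z f z) T ^ 2) := by
  rw [ex_sum, ← Finset.sum_fiberwise_of_maps_to (g := fun S : Finset ι => S \ Z) (t := 𝒯)
    (fun S hS => (Finset.mem_filter.1 hS).2)]
  refine Finset.sum_le_sum fun T _ => ?_
  refine le_trans ?_ (sum_coef_sq_fiber_le h0 h1 Z f T)
  refine Finset.sum_le_sum_of_subset_of_nonneg ?_ fun _ _ _ => sq_nonneg _
  intro S hS
  exact Finset.mem_filter.2 ⟨Finset.mem_univ _, (Finset.mem_filter.1 hS).2⟩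

lemma ex_infl_restr (p : ℝ) (Z : Finset ι) (f : (ι → Bool) → ℝ) {e : ι} (he : e ∉ Z) :
    ex p (fun z => infl p (restr Z f z) e) = infl p f e := by
  unfold infl
  rw [← ex_piecewise p Z (fun x => |dv e f x|)]
  refine ex_congr p fun z => ex_congr p fun x => ?_
  unfold dv restr
  have : ∀ b, Z.piecewise z (Function.update x e b) = Function.update (Z.piecewise z x) e b := by
    intro b; funext j
    by_cases hj : j = e
    · subst hj; simp [Finset.piecewise, he]
    · by_cases hjZ : j ∈ Z <;> simp [Finset.piecewise, hjZ, Function.update_of_ne hj]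
  rw [this, this]

lemma infl_perm (p : ℝ) (τ : Equiv.Perm ι) (f : (ι → Bool) → ℝ) (hf : ∀ x, f (x ∘ τ) = f x)
    (e : ι) : infl p f (τ e) = infl p f e := by
  unfold infl
  rw [← ex_comp_perm p τ (fun x => |dv e f x|)]
  refine ex_congr p fun x => ?_
  unfold dv
  have : ∀ b, Function.update (x ∘ τ) e b = (Function.update x (τ e) b) ∘ τ := by
    intro b; funext j
    by_cases hj : j = e
    · subst hj; simp
    · have : τ j ≠ τ e := fun h => hj (τ.injective h)
      simp [Function.update_of_ne hj, Function.update_of_ne this]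
  rw [this, this, hf, hf]

end Crest.Agent.Lib.BiasedCube
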